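import Vale.Agent.P157.Final

open MeasureTheory Filter Topology

namespace Vale.Agent.Results.P157.A_full

open _root_.P157

theorem result (α : ℝ) (hα : 0 < α) (f : ℝ → ℝ) (hf : Measurable f) (hb : ∃ K : ℝ, ∀ y, |f y| ≤ K) :
    (∃ P : ℝ, IsGLB (values isingEntropy α f) P ∧
      Tendsto (meanPressure isingMeasure α f) atTop (𝓝 P)) ∧
    (∃ P : ℝ, IsGLB (values sphereEntropy α f) P ∧
      Tendsto (meanPressure sphereMeasure α f) atTop (𝓝 P)) ∧
    (∀ (k : ℕ) (m p : ℕ → ℝ), IsPartition k m → IsPath k p → p k < 1 →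
      IsGreatest (isingEntropySet k m p) (isingEntropy k m p)) ∧
    (∀ N : ℕ, IsProbabilityMeasure (isingMeasure N)) ∧
    (∀ N : ℕ, 0 < N → IsProbabilityMeasure (sphereMeasure N)) := by
  obtain ⟨K, hK⟩ := hb
  refine ⟨⟨_, isGLB_csInf (values_nonempty _ _ _) (values_bddBelow
      (fun k m p hk hp hp1 => isingEntropy_nonneg hk hp hp1) hα hf hK), ising_main hα hf hK⟩,
    ⟨_, isGLB_csInf (values_nonempty _ _ _) (values_bddBelow
      (fun k m p hk hp hp1 => sphereEntropy_nonneg hk hp hp1) hα hf hK), sphere_main hα hf hK⟩,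
    fun k m p hk hp hp1 => ?_, fun N => inferInstance, fun N hN => ?_⟩
  · obtain ⟨r, hr, hpr⟩ := exists_crit hk hp hp1
    obtain ⟨h1, h2⟩ := isingEntropy_eq hk hr hpr
    rw [h2]; exact h1
  · rw [← map_sphSp hN]
    exact Measure.isProbabilityMeasure_map (sphSp_isSp N).meas.aemeasurable

end Vale.Agent.Results.P157.A_full
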